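import Vale.Agent.P029.Main

namespace Vale.Agent.Results.P029.Free

open Vale.Agent.P029

theorem result : ∃ D : L → LieDerivation ℚ L L, (∀ ψ, D ψ x = 0 ∧ D ψ y = ⁅y, ψ⁆) ∧
    (∀ ψ ∈ W, ∀ φ ∈ W, D ψ φ - D φ ψ + ⁅ψ, φ⁆ ∈ W) ∧
    ∃ Φ : F →ₗ[ℚ] L, (∀ k, Φ (e k) ∈ W ∧ Φ (e k) ∈ Lw (2 * k + 3)) ∧
      (∀ a b, Φ ⁅a, b⁆ = D (Φ a) (Φ b) - D (Φ b) (Φ a) + ⁅Φ a, Φ b⁆) ∧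
      Function.Injective Φ ∧ Set.range Φ = W ∧ ∀ n, Φ '' Fw n = W ∩ Lw n :=
  main

end Vale.Agent.Results.P029.Free
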